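import Vale.Agent.Lib.P176.U.Minor
import Vale.Agent.Lib.P176.Syz
import Vale.Agent.Lib.P176.Open

namespace Vale.Agent.Lib.P176.U

open Vale.Agent.Lib.P176

universe v

section Spec

variable {B : Type*} [CommRing B] {K : Type*} [Field K] {n : ℕ}
  {m m' : Type} [Fintype m] [DecidableEq m] [Fintype m'] [DecidableEq m']

/-- Specialization of a family of matrices along a ring homomorphism. -/
def spr (π : B →+* K) {m : Type} (A : Fin n → Matrix m m B) : Fin n → Matrix m m K :=
  fun i => (A i).map π

lemma pi_mul_apply_r {u v w : Type} [Fintype v] (π : B →+* K) (M : Matrix u v B) (N : Matrix v w B)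
    (p : u) (q : w) : π ((M * N) p q) = (M.map π * N.map π) p q := by
  simp [Matrix.mul_apply, map_sum, map_mul]

lemma spec_D0_r (π : B →+* K) (A' : Fin n → Matrix m' m' B) (A : Fin n → Matrix m m B)
    (x : m' × m → B) (u : Fin n × (m' × m)) :
    π (D0f A' A x u) = D0f (spr π A') (spr π A) (fun i => π (x i)) u := by
  rw [D0f_apply, D0f_apply, Matrix.sub_apply, Matrix.sub_apply, map_sub, pi_mul_apply_r,
    pi_mul_apply_r]
  have e1 : (cur x).map π = cur (fun i => π (x i)) := by ext p q; rfl
  rw [e1]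
  rfl

lemma spec_D1_r (γ : Fin n → Fin n → Fin n → B) (π : B →+* K) (A' : Fin n → Matrix m' m' B)
    (A : Fin n → Matrix m m B)
    (f : Fin n × (m' × m) → B) (u : Fin n × Fin n × (m' × m)) :
    π (D1f γ A' A f u)
      = D1f (fun i j l => π (γ i j l)) (spr π A') (spr π A) (fun i => π (f i)) u := by
  rw [D1f_apply, D1f_apply, Matrix.sub_apply, Matrix.sub_apply, Matrix.add_apply, Matrix.add_apply,
    map_sub, map_add, pi_mul_apply_r, pi_mul_apply_r]
  have e1 : ∀ i, (sl f i).map π = sl (fun i => π (f i)) i := by intro i; ext p q; rfl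
  rw [e1, e1]
  congr 1
  simp only [Matrix.sum_apply, map_sum, Matrix.smul_apply, smul_eq_mul, map_mul]
  refine Finset.sum_congr rfl fun l _ => ?_
  congr 1

/-- The matrix of a specialized linear map. -/
lemma map_toMatrix (π : B →+* K) {u w : Type} [Fintype u] [Fintype w] [DecidableEq u]
    [DecidableEq w] (D : (u → B) →ₗ[B] (w → B)) (D' : (u → K) →ₗ[K] (w → K))
    (h : ∀ x v, π (D x v) = D' (fun i => π (x i)) v) :
    (LinearMap.toMatrix' D).map π = LinearMap.toMatrix' D' := by
  ext p q
  rw [Matrix.map_apply, LinearMap.toMatrix'_apply, LinearMap.toMatrix'_apply, h]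
  have e : (fun i => π ((Pi.single q 1 : u → B) i)) = (Pi.single q 1 : u → K) := by
    funext i
    by_cases hi : i = q
    · subst hi
      simp
    · simp [hi]
  rw [e]

/-- Vanishing of `Ext¹` between two families is open, over arbitrary fields. -/
theorem open_cocy_u {K : Type v} [Field K] (γ : Fin n → Fin n → Fin n → B) {a0 : Fin n}
    (A' : Fin n → Matrix m' m' B) (A : Fin n → Matrix m m B)
    (hA' : IsRep γ a0 A') (hA : IsRep γ a0 A) (π : B →+* K)
    (h : Cocy (fun i j l => π (γ i j l)) (spr π A') (spr π A)) :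
    ∃ f : B, π f ≠ 0 ∧ ∀ (K' : Type v) [Field K'] (π' : B →+* K'), π' f ≠ 0 →
      Cocy (fun i j l => π' (γ i j l)) (spr π' A') (spr π' A) := by
  classical
  have hz : LinearMap.toMatrix' (D1f γ A' A) * LinearMap.toMatrix' (D0f A' A) = 0 := by
    rw [← LinearMap.toMatrix'_comp]
    have : (D1f γ A' A) ∘ₗ (D0f A' A) = 0 := by
      refine LinearMap.ext fun x => ?_
      exact D1f_D0f γ A' A hA'.mul hA.mul x
    rw [this]
    simp
  have hex : ∀ x, ((LinearMap.toMatrix' (D1f γ A' A)).map π).mulVec x = 0 →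
      ∃ y, ((LinearMap.toMatrix' (D0f A' A)).map π).mulVec y = x := by
    intro x hx
    rw [map_toMatrix π _ _ (spec_D1_r γ π A' A), LinearMap.toMatrix'_mulVec] at hx
    obtain ⟨X, hX⟩ := h (sl x) (by
      intro i j
      have hz : (spr π A' i * sl x j + sl x i * spr π A j
          - ∑ l, π (γ i j l) • sl x l) = 0 := by
        ext p q
        have := congrFun hx (i, j, p, q)
        rw [D1f_apply] at this
        exact this
      exact sub_eq_zero.mp hz)
    refine ⟨fun p => X p.1 p.2, ?_⟩
    rw [map_toMatrix π _ _ (spec_D0_r π A' A), LinearMap.toMatrix'_mulVec]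
    funext u
    have e := congrFun (congrFun (hX u.1) u.2.1) u.2.2
    have e3 : cur (fun p : m' × m => X p.1 p.2) = X := by ext p q; rfl
    rw [D0f_apply, e3]
    exact e.symm
  obtain ⟨f, hf, hopen⟩ := open_exact_ring π _ _ hz hex
  refine ⟨f, hf, fun K' _ π' hf' g hg => ?_⟩
  have hx : D1f (fun i j l => π' (γ i j l)) (spr π' A') (spr π' A)
      (fun u => g u.1 u.2.1 u.2.2) = 0 := by
    funext u
    rw [D1f_apply]
    have es : ∀ i, sl (fun u : Fin n × (m' × m) => g u.1 u.2.1 u.2.2) i = g i := by
      intro i; ext p q; rfl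
    simp only [es]
    rw [hg u.1 u.2.1, sub_self]
    rfl
  have hx' : ((LinearMap.toMatrix' (D1f γ A' A)).map π').mulVec (fun u => g u.1 u.2.1 u.2.2) = 0 := by
    rw [map_toMatrix π' _ _ (spec_D1_r γ π' A' A), LinearMap.toMatrix'_mulVec]
    exact hx
  obtain ⟨y, hy⟩ := hopen K' π' hf' _ hx'
  rw [map_toMatrix π' _ _ (spec_D0_r π' A' A), LinearMap.toMatrix'_mulVec] at hy
  refine ⟨cur y, fun i => ?_⟩
  ext p q
  have := congrFun hy (i, p, q)
  rw [D0f_apply] at this
  exact this.symm

end Spec

section PD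

variable {n : ℕ} {B : Type*} [CommRing B] {K : Type v} [Field K]
  {γ : Fin n → Fin n → Fin n → B} {a0 : Fin n}

theorem isStruct_spr (hγ : IsStruct γ a0) (π : B →+* K) :
    IsStruct (fun i j l => π (γ i j l)) a0 where
  assoc i j h t := by
    simpa [map_sum, map_mul] using congrArg π (hγ.assoc i j h t)
  left j l := by
    rw [hγ.left]; split_ifs <;> simp
  right i l := by
    rw [hγ.right]; split_ifs <;> simp

theorem isRep_spr {m : Type} [Fintype m] [DecidableEq m] {A : Fin n → Matrix m m B}
    (hA : IsRep γ a0 A) (π : B →+* K) :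
    IsRep (fun i j l => π (γ i j l)) a0 (spr π A) where
  mul i j := by
    ext p q
    have := congrArg (fun M => π (M p q)) (hA.mul i j)
    simpa [spr, Matrix.mul_apply, Matrix.sum_apply, map_sum] using this
  one := by
    ext p q
    simp only [spr, hA.one, Matrix.map_apply, Matrix.one_apply]
    split_ifs <;> simp

/-- The canonical syzygy commutes with specialization along a ring homomorphism. -/
theorem syz_spr {m : Type} [Fintype m] [DecidableEq m] (π : B →+* K) (A : Fin n → Matrix m m B) :
    spr π (syz γ a0 A) = syz (fun i j l => π (γ i j l)) a0 (spr π A) := by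
  funext i
  have h1 : (pr a0 : Matrix (Idx a0 m) (Fin n × m) B).map π =
      (pr a0 : Matrix (Idx a0 m) (Fin n × m) K) := by
    ext u v
    simp only [Matrix.map_apply, pr]
    split_ifs <;> simp
  have h2 : (F γ i : Matrix (Fin n × m) (Fin n × m) B).map π =
      F (fun i j l => π (γ i j l)) i := by
    ext u v
    simp only [Matrix.map_apply, F]
    split_ifs <;> simp
  have h3 : (inj a0 A).map π = inj a0 (spr π A) := by
    ext u v
    simp only [Matrix.map_apply, inj, spr, map_sub]
    congr 1 <;> (split_ifs <;> simp)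
  have e : ∀ (a b : Type) [Fintype a] [Fintype b] [DecidableEq a] [DecidableEq b]
      (c : Type) [Fintype c] (P : Matrix a b B) (Q : Matrix b c B),
      (P * Q).map π = P.map π * Q.map π := by
    intro a b _ _ _ _ c _ P Q
    exact Matrix.map_mul (f := π)
  change ((pr a0 : Matrix (Idx a0 m) (Fin n × m) B) *
      (F γ i : Matrix (Fin n × m) (Fin n × m) B) * inj a0 A).map π =
    (pr a0 : Matrix (Idx a0 m) (Fin n × m) K) *
      (F (fun i j l => π (γ i j l)) i : Matrix (Fin n × m) (Fin n × m) K) * inj a0 (spr π A)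
  rw [e, e, h1, h2, h3]

/-- Projective dimension at most `t` is open, over arbitrary fields. -/
theorem pd_open_u (hγ : IsStruct γ a0) :
    ∀ (t : ℕ) (m : Type) [Fintype m] [DecidableEq m] (A : Fin n → Matrix m m B),
      IsRep γ a0 A →
      ∀ (K : Type v) [Field K] (π : B →+* K),
        PDm (fun i j l => π (γ i j l)) a0 t m (spr π A) →
        ∃ f : B, π f ≠ 0 ∧ ∀ (K' : Type v) [Field K'] (π' : B →+* K'), π' f ≠ 0 →
          PDm (fun i j l => π' (γ i j l)) a0 t m (spr π' A) := by
  intro t
  induction t with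
  | zero =>
    intro m _ _ A hA K _ π h
    have hsec : HasSec (fun i j l => π (γ i j l)) a0 (spr π A) := h
    have hCo : Cocy (fun i j l => π (γ i j l)) (spr π (syz γ a0 A)) (spr π A) :=
      cocy_of_hasSec (isStruct_spr hγ π) (isRep_spr hA π) _ hsec
    obtain ⟨f, hf, hf'⟩ := open_cocy_u γ (a0 := a0) (syz γ a0 A) A (isRep_syz hγ hA) hA π hCo
    refine ⟨f, hf, fun K' _ π' hπ' => ?_⟩
    have h2 := hf' K' π' hπ'
    rw [syz_spr] at h2
    exact hasSec_of_cocy (isStruct_spr hγ π') (isRep_spr hA π') h2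
  | succ t ih =>
    intro m _ _ A hA K _ π h
    have h' : PDm (fun i j l => π (γ i j l)) a0 t (Idx a0 m) (spr π (syz γ a0 A)) := by
      rw [syz_spr]
      exact h
    obtain ⟨f, hf, hf'⟩ := ih (Idx a0 m) (syz γ a0 A) (isRep_syz hγ hA) K π h'
    refine ⟨f, hf, fun K' _ π' hπ' => ?_⟩
    have h2 := hf' K' π' hπ'
    rw [syz_spr] at h2
    exact h2

end PD

/-- In a family of representations over arbitrary fields, all of the same size and with structure
constants of the same length, finite projective dimensions are bounded. -/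
theorem noeth_u {n : ℕ} {a0 : Fin n} {m : Type} [Fintype m] [DecidableEq m] {ι : Type*}
    (K : ι → Type v) [∀ z, Field (K z)] (γ : ∀ z, Fin n → Fin n → Fin n → K z)
    (P : ∀ z, Fin n → Matrix m m (K z)) (hγ : ∀ z, IsStruct (γ z) a0) (hP : ∀ z, IsRep (γ z) a0 (P z))
    (hfin : ∀ z, ∃ t, PDm (γ z) a0 t m (P z)) :
    ∃ N : ℕ, ∀ z, ∃ t, t ≤ N ∧ PDm (γ z) a0 t m (P z) := by
  classical
  -- the finite set of entry functions and the finitely generated ring `Bb`
  let e : (Fin n × Fin n × Fin n) ⊕ (Fin n × m × m) → ((z : ι) → K z) := fun t z =>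
    Sum.elim (fun s => γ z s.1 s.2.1 s.2.2) (fun s => P z s.1 s.2.1 s.2.2) t
  let S : Set ((z : ι) → K z) := Set.range e
  have hS : S.Finite := Set.finite_range e
  let Bb : Subalgebra ℤ ((z : ι) → K z) := Algebra.adjoin ℤ S
  have hft : Algebra.FiniteType ℤ Bb := by
    refine (Subalgebra.fg_iff_finiteType Bb).1 ?_
    exact ⟨hS.toFinset, by simp [Bb]⟩
  have hnoeth : IsNoetherianRing Bb := Algebra.FiniteType.isNoetherianRing ℤ Bb
  -- evaluation
  let π : ∀ z, Bb →+* K z := fun z =>
    { toFun := fun x => (x : (z : ι) → K z) z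
      map_one' := rfl
      map_mul' := fun _ _ => rfl
      map_zero' := rfl
      map_add' := fun _ _ => rfl }
  have hsep : ∀ x y : Bb, (∀ z, π z x = π z y) → x = y := by
    intro x y h
    apply Subtype.ext
    funext z
    exact h z
  -- the universal structure constants and matrices
  let γB : Fin n → Fin n → Fin n → Bb := fun i j l =>
    ⟨e (Sum.inl (i, j, l)), Algebra.subset_adjoin ⟨_, rfl⟩⟩
  let A : Fin n → Matrix m m Bb := fun i => Matrix.of fun a b =>
    ⟨e (Sum.inr (i, a, b)), Algebra.subset_adjoin ⟨_, rfl⟩⟩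
  have hγπ : ∀ z, (fun i j l => π z (γB i j l)) = γ z := fun z => rfl
  have hAπ : ∀ z, spr (π z) A = P z := by
    intro z
    funext i
    ext a b
    rfl
  have hS' : IsStruct γB a0 := by
    refine ⟨fun i j h t => ?_, fun j l => ?_, fun i l => ?_⟩
    · apply hsep
      intro z
      simp only [map_sum, map_mul]
      exact (hγ z).assoc i j h t
    · apply hsep
      intro z
      have h1 : π z (γB a0 j l) = γ z a0 j l := rfl
      rw [h1, (hγ z).left]
      split_ifs <;> simp
    · apply hsep
      intro z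
      have h1 : π z (γB i a0 l) = γ z i a0 l := rfl
      rw [h1, (hγ z).right]
      split_ifs <;> simp
  have hA : IsRep γB a0 A := by
    refine ⟨fun i j => ?_, ?_⟩
    · refine Matrix.ext fun a b => ?_
      apply hsep
      intro z
      have h1 : (π z) ((A i * A j) a b) = (spr (π z) A i * spr (π z) A j) a b := by
        simp [spr, Matrix.mul_apply, map_sum, map_mul]
      have h2 : (π z) ((∑ l, γB i j l • A l) a b)
          = (∑ l, γ z i j l • spr (π z) A l) a b := by
        simp only [spr, Matrix.sum_apply, map_sum, Matrix.smul_apply, smul_eq_mul, map_mul,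
          Matrix.map_apply]
        rfl
      rw [h1, h2]
      simp only [hAπ]
      rw [(hP z).mul]
    · refine Matrix.ext fun a b => ?_
      apply hsep
      intro z
      have h1 : (π z) (A a0 a b) = P z a0 a b := rfl
      rw [h1, (hP z).one, Matrix.one_apply, Matrix.one_apply]
      split_ifs <;> simp
  -- the chain of ideals
  let Good : ℕ → Set Bb := fun t =>
    {f | ∀ z, π z f ≠ 0 → ∃ s, s ≤ t ∧ PDm (γ z) a0 s m (P z)}
  have hmono : Monotone (fun t => Ideal.span (Good t)) := by
    intro t t' htt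
    apply Ideal.span_mono
    intro f hf z hz
    obtain ⟨s, hs, hs'⟩ := hf z hz
    exact ⟨s, hs.trans htt, hs'⟩
  let I : ℕ →o Ideal Bb := ⟨fun t => Ideal.span (Good t), hmono⟩
  obtain ⟨N, hN⟩ := monotone_stabilizes_iff_noetherian.mpr (inferInstanceAs (IsNoetherian Bb Bb)) I
  refine ⟨N, fun z => ?_⟩
  obtain ⟨t, ht⟩ := hfin z
  obtain ⟨f, hf, hf'⟩ := pd_open_u hS' t m A hA (K z) (π z) (by
    rw [hAπ]
    exact ht)
  have hgood : f ∈ Good t := fun w hw => ⟨t, le_rfl, by
    have h2 := hf' (K w) (π w) hw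
    rwa [hAπ] at h2⟩
  by_cases htN : t ≤ N
  · exact ⟨t, htN, ht⟩
  · have hfI : f ∈ I t := Ideal.subset_span hgood
    rw [← hN t (by omega)] at hfI
    by_contra hcon
    have hle : Ideal.span (Good N) ≤ RingHom.ker (π z) := by
      rw [Ideal.span_le]
      intro g hg
      by_contra hgz
      exact hcon (hg z hgz)
    exact hf (hle hfI)

end Vale.Agent.Lib.P176.U
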