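import Vale.Agent.Lib.P176.U.MainU

namespace Vale.Agent.Lib.P176.U

open Module CategoryTheory Abelian Vale.Agent.Lib.P176

universe u v

/-- Finite length modules have projective dimension at most the bound on the simple modules. -/
theorem pd_of_finiteLength {R : Type u} [Ring R] {N : ℕ}
    (hS : ∀ S : ModuleCat.{u} R, IsSimpleModule R S → HasProjectiveDimensionLE S N)
    (M : Type u) [AddCommGroup M] [Module R M] (h : IsFiniteLength R M) :
    HasProjectiveDimensionLE (ModuleCat.of R M) N := by
  induction h with
  | @of_subsingleton M _ _ _ =>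
    have hz : Limits.IsZero (ModuleCat.of R M) := ModuleCat.isZero_of_subsingleton _
    have h0 := hz.hasProjectiveDimensionLT_zero
    exact hasProjectiveDimensionLT_of_ge _ 0 _ (by omega)
  | @of_simple_quotient M _ _ K hK _ ih =>
    have hq := hS (ModuleCat.of R (M ⧸ K)) hK
    exact pd_mid (K := ModuleCat.of R K) (P := ModuleCat.of R M) (K' := ModuleCat.of R (M ⧸ K))
      K.subtype K.mkQ K.injective_subtype K.mkQ_surjective
      (LinearMap.exact_subtype_mkQ K) _ ih hq

/-- If an algebra of dimension `n` over a field has finite global dimension (equivalently: all its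
simple modules have finite projective dimension), then its global dimension is at most `N n`,
where `N n` depends only on `n`, not on the field or the algebra. -/
theorem uniform_gldim (n : ℕ) :
    ∃ N : ℕ, ∀ (k : Type v) [Field k] (R : Type u) [Ring R] [Algebra k R] [FiniteDimensional k R],
      Module.finrank k R = n →
      (∀ S : ModuleCat.{u} R, IsSimpleModule R S → ∃ t : ℕ, HasProjectiveDimensionLE S t) →
      ∀ M : ModuleCat.{u} R, Module.Finite R M → HasProjectiveDimensionLE M N := by
  obtain ⟨N, hN⟩ := uniform_pd.{u, v} n 1
  refine ⟨N, ?_⟩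
  intro k _ R _ _ _ hn hS M hM
  have hS' : ∀ S : ModuleCat.{u} R, IsSimpleModule R S → HasProjectiveDimensionLE S N := by
    intro S hsimple
    refine hN k R hn S ?_ (hS S hsimple)
    have hnt : Nontrivial S := IsSimpleModule.nontrivial R S
    obtain ⟨x, hx⟩ := exists_ne (0 : S)
    have hsurj := IsSimpleModule.toSpanSingleton_surjective R hx
    refine ⟨(LinearMap.toSpanSingleton R S x) ∘ₗ (LinearMap.proj (0 : Fin 1)), ?_⟩
    intro y
    obtain ⟨r, hr⟩ := hsurj y
    exact ⟨fun _ => r, hr⟩
  have hart : IsArtinianRing R := IsArtinianRing.of_finite k R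
  have hnoeth : IsNoetherianRing R := isNoetherian_of_tower k (inferInstance : IsNoetherian k R)
  have h1 : IsNoetherian R M := inferInstance
  have h2 : IsArtinian R M := inferInstance
  have hfl : IsFiniteLength R M := isFiniteLength_iff_isNoetherian_isArtinian.mpr ⟨h1, h2⟩
  exact pd_of_finiteLength hS' M hfl

end Vale.Agent.Lib.P176.U
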