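import Vale.Agent.Lib.P176.U.MainU

namespace Vale.Agent.Lib.P176.U

open Module CategoryTheory Abelian Vale.Agent.Lib.P176

universe u v

variable {R : Type u} [Ring R]

/-- `E` has a filtration with `l` steps whose subquotients have finite projective dimension and at
most `G` generators. -/
def FiltG (G : ℕ) : ℕ → ModuleCat.{u} R → Prop
  | 0, E => Subsingleton E
  | l + 1, E => ∃ (E' F : ModuleCat.{u} R) (i : E' →ₗ[R] E) (p : E →ₗ[R] F),
      Function.Injective i ∧ Function.Surjective p ∧ Function.Exact i p ∧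
        (∃ f : (Fin G → R) →ₗ[R] F, Function.Surjective f) ∧
        (∃ t : ℕ, HasProjectiveDimensionLE F t) ∧ FiltG G l E'

/-- `A` is a direct summand of a module with such a filtration. -/
def Lev0 (G : ℕ) (A : ModuleCat.{u} R) : Prop :=
  ∃ (l : ℕ) (E : ModuleCat.{u} R) (a : A →ₗ[R] E) (b : E →ₗ[R] A), FiltG G l E ∧ b ∘ₗ a = LinearMap.id

/-- `M` has a resolution `0 → A_s → ... → A_0 → M → 0` by such summands. -/
def Lev (G : ℕ) : ℕ → ModuleCat.{u} R → Prop
  | 0, M => Lev0 G M
  | s + 1, M => ∃ (K A : ModuleCat.{u} R) (i : K →ₗ[R] A) (p : A →ₗ[R] M),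
      Lev0 G A ∧ Lev G s K ∧ Function.Injective i ∧ Function.Surjective p ∧ Function.Exact i p

theorem filt_pd {G N : ℕ}
    (hN : ∀ F : ModuleCat.{u} R, (∃ f : (Fin G → R) →ₗ[R] F, Function.Surjective f) →
      (∃ t : ℕ, HasProjectiveDimensionLE F t) → HasProjectiveDimensionLE F N) :
    ∀ (l : ℕ) (E : ModuleCat.{u} R), FiltG G l E → HasProjectiveDimensionLE E N := by
  intro l
  induction l with
  | zero =>
    intro E hE
    have hs : Subsingleton E := hE
    have hz : Limits.IsZero E := ModuleCat.isZero_of_subsingleton E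
    have h0 := hz.hasProjectiveDimensionLT_zero
    exact hasProjectiveDimensionLT_of_ge E 0 _ (by omega)
  | succ l ih =>
    rintro E ⟨E', F, i, p, hi, hp, hex, hgen, hfin, hfilt⟩
    exact pd_mid i p hi hp hex _ (ih E' hfilt) (hN F hgen hfin)

theorem lev0_pd {G N : ℕ}
    (hN : ∀ F : ModuleCat.{u} R, (∃ f : (Fin G → R) →ₗ[R] F, Function.Surjective f) →
      (∃ t : ℕ, HasProjectiveDimensionLE F t) → HasProjectiveDimensionLE F N)
    (A : ModuleCat.{u} R) (h : Lev0 G A) : HasProjectiveDimensionLE A N := by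
  obtain ⟨l, E, a, b, hE, hab⟩ := h
  have hEp := filt_pd hN l E hE
  let r : Retract A E :=
    { i := ModuleCat.ofHom a
      r := ModuleCat.ofHom b
      retract := by
        ext x
        exact congrFun (congrArg DFunLike.coe hab) x }
  exact r.hasProjectiveDimensionLT _

theorem lev_pd {G N : ℕ}
    (hN : ∀ F : ModuleCat.{u} R, (∃ f : (Fin G → R) →ₗ[R] F, Function.Surjective f) →
      (∃ t : ℕ, HasProjectiveDimensionLE F t) → HasProjectiveDimensionLE F N) :
    ∀ (s : ℕ) (M : ModuleCat.{u} R), Lev G s M → HasProjectiveDimensionLE M (N + s) := by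
  intro s
  induction s with
  | zero =>
    intro M h
    exact lev0_pd hN M h
  | succ s ih =>
    rintro M ⟨K, A, i, p, hA, hK, hi, hp, hex⟩
    obtain ⟨S, hS, rfl, rfl, rfl⟩ := shortExact_of_linear i p hi hp hex
    have h1 : HasProjectiveDimensionLT S.X₁ (N + s + 1) := ih _ hK
    have h2' : HasProjectiveDimensionLT S.X₂ (N + 1) := lev0_pd hN _ hA
    have h2 : HasProjectiveDimensionLT S.X₂ (N + s + 1 + 1) :=
      hasProjectiveDimensionLT_of_ge _ (N + 1) _ (by omega)
    exact hS.hasProjectiveDimensionLT_X₃ (N + s + 1) h1 h2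

/-- Modules with a resolution of length `s` by direct summands of modules filtered by modules of
finite projective dimension with at most `G` generators have projective dimension bounded in terms
of `dim R`, `s`, `G` only. -/
theorem uniform_lev (n s G : ℕ) :
    ∃ N : ℕ, ∀ (k : Type v) [Field k] (R : Type u) [Ring R] [Algebra k R] [FiniteDimensional k R],
      Module.finrank k R = n → ∀ M : ModuleCat.{u} R, Lev G s M →
        HasProjectiveDimensionLE M N := by
  obtain ⟨N0, hN0⟩ := uniform_pd.{u, v} n G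
  refine ⟨N0 + s, ?_⟩
  intro k _ R _ _ _ hn M hM
  exact lev_pd (fun F hgen hfin => hN0 k R hn F hgen hfin) s M hM

end Vale.Agent.Lib.P176.U
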