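import Vale.Agent.Lib.P176.U.Core
import Vale.Agent.Lib.P176.Syzy

namespace Vale.Agent.Lib.P176.U

open Module CategoryTheory Abelian Vale.Agent.Lib.P176

universe u v

/-- A representation over some field of some algebra, of finite projective dimension. -/
structure Dat (n : ℕ) (a0 : Fin n) (d : ℕ) : Type (v + 1) where
  K : Type v
  [fld : Field K]
  γ : Fin n → Fin n → Fin n → K
  P : Fin n → Matrix (Fin d) (Fin d) K
  hγ : IsStruct γ a0
  hP : IsRep γ a0 P
  hfin : ∃ t, PDm γ a0 t (Fin d) P

instance (n : ℕ) (a0 : Fin n) (d : ℕ) (z : Dat.{v} n a0 d) : Field z.K := z.fld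

theorem dat_bound (n : ℕ) (a0 : Fin n) (d : ℕ) :
    ∃ N : ℕ, ∀ z : Dat.{v} n a0 d, ∃ t, t ≤ N ∧ PDm z.γ a0 t (Fin d) z.P :=
  noeth_u (fun z : Dat.{v} n a0 d => z.K) (fun z => z.γ) (fun z => z.P) (fun z => z.hγ)
    (fun z => z.hP) (fun z => z.hfin)

/-- Modules with at most `G` generators and finite projective dimension over an algebra of
dimension `n` have projective dimension at most `N n G`, uniformly over all fields and all
algebras of dimension `n`. -/
theorem uniform_pd (n G : ℕ) :
    ∃ N : ℕ, ∀ (k : Type v) [Field k] (R : Type u) [Ring R] [Algebra k R] [FiniteDimensional k R],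
      Module.finrank k R = n → ∀ M : ModuleCat.{u} R,
        (∃ f : (Fin G → R) →ₗ[R] M, Function.Surjective f) →
        (∃ t : ℕ, HasProjectiveDimensionLE M t) → HasProjectiveDimensionLE M N := by
  classical
  choose Nd hNd using fun (a0 : Fin n) (d : ℕ) => dat_bound.{v} n a0 d
  refine ⟨Finset.univ.sup (fun a0 : Fin n => (Finset.range (G * n + 1)).sup (Nd a0)), ?_⟩
  intro k _ R _ _ _ hn M hgen ht
  by_cases hR : Subsingleton R
  · have hs : Subsingleton M := Module.subsingleton R M
    have hz : Limits.IsZero M := ModuleCat.isZero_of_subsingleton M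
    have h0 := hz.hasProjectiveDimensionLT_zero
    exact hasProjectiveDimensionLT_of_ge M 0 _ (by omega)
  have hnt : Nontrivial R := not_subsingleton_iff_nontrivial.mp hR
  obtain ⟨n', e0, a00, he0⟩ := exists_basis_one k R
  have hn' : n' = n := by
    rw [← hn, Module.finrank_eq_card_basis e0]
    simp
  let e : Basis (Fin n) k R := e0.reindex (finCongr hn')
  let a0 : Fin n := finCongr hn' a00
  have he : e a0 = 1 := by
    simp only [e, a0, Basis.reindex_apply, Equiv.symm_apply_apply]
    exact he0
  letI instK : Module k M := Module.compHom M (algebraMap k R)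
  have instT : IsScalarTower k R M := IsScalarTower.of_algebraMap_smul (fun _ _ => rfl)
  obtain ⟨f, hf⟩ := hgen
  let fk : (Fin G → R) →ₗ[k] M := f.restrictScalars k
  have hfk : Function.Surjective fk := hf
  have h1 : Module.Finite k M := Module.Finite.of_surjective fk hfk
  have h2 : Module.finrank k M ≤ Module.finrank k (Fin G → R) :=
    LinearMap.finrank_le_finrank_of_surjective hfk
  have h3 : Module.finrank k (Fin G → R) = G * n := by
    rw [Module.finrank_pi_fintype, hn]
    simp
  let b : Basis (Fin (Module.finrank k M)) k M := Module.finBasisOfFinrankEq k M rfl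
  obtain ⟨t, ht⟩ := ht
  have hPD : PDm (gam e) a0 t (Fin (Module.finrank k M)) (rep e b) :=
    (pd_iff e a0 he t _ M b).1 ht
  let z : Dat.{v} n a0 (Module.finrank k M) :=
    { K := k
      γ := gam e
      P := rep e b
      hγ := isStruct_gam e a0 he
      hP := isRep_rep e b a0 he
      hfin := ⟨t, hPD⟩ }
  obtain ⟨s, hs, hs'⟩ := hNd a0 _ z
  have hsM : HasProjectiveDimensionLE (ModuleCat.of R M) s := (pd_iff e a0 he s _ M b).2 hs'
  have hle1 : Nd a0 (Module.finrank k M) ≤ (Finset.range (G * n + 1)).sup (Nd a0) :=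
    Finset.le_sup (Finset.mem_range.2 (by omega))
  have hle2 : (Finset.range (G * n + 1)).sup (Nd a0) ≤
      Finset.univ.sup (fun a0 : Fin n => (Finset.range (G * n + 1)).sup (Nd a0)) :=
    Finset.le_sup (f := fun a0 : Fin n => (Finset.range (G * n + 1)).sup (Nd a0)) (Finset.mem_univ a0)
  have hM : HasProjectiveDimensionLE M s := hsM
  exact hasProjectiveDimensionLT_of_ge M (s + 1) _ (by omega)

/-- If `M` has finite projective dimension and an `s`-th syzygy that is a finite direct sum of
modules with at most `G` generators, then its projective dimension is bounded in terms of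
`dim R`, `s` and `G` only. -/
theorem uniform_syz (n s G : ℕ) :
    ∃ N : ℕ, ∀ (k : Type v) [Field k] (R : Type u) [Ring R] [Algebra k R] [FiniteDimensional k R],
      Module.finrank k R = n → ∀ M K : ModuleCat.{u} R, IsSyz s K M →
        (∃ t : ℕ, HasProjectiveDimensionLE M t) →
        (∃ (l : ℕ) (K' : Fin l → ModuleCat.{u} R),
          (∀ j, ∃ f : (Fin G → R) →ₗ[R] K' j, Function.Surjective f) ∧
          Nonempty (K ≃ₗ[R] ((j : Fin l) → K' j))) →
        HasProjectiveDimensionLE M N := by
  classical
  obtain ⟨N0, hN0⟩ := uniform_pd.{u, v} n G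
  refine ⟨N0 + s, ?_⟩
  intro k _ R _ _ _ hn M K hsyz hpd hdec
  obtain ⟨l, K', hgen, ⟨e⟩⟩ := hdec
  obtain ⟨t, ht⟩ := hpd
  obtain ⟨t', ht'⟩ := syz_down s K M hsyz t ht
  have hPi : HasProjectiveDimensionLE (ModuleCat.of R ((j : Fin l) → K' j)) t' :=
    hasProjectiveDimensionLT_of_iso e.toModuleIso _
  have hj : ∀ j, HasProjectiveDimensionLE (K' j) N0 := by
    intro j
    refine hN0 k R hn (K' j) (hgen j) ⟨t', ?_⟩
    let r : Retract (K' j) (ModuleCat.of R ((j : Fin l) → K' j)) :=
      { i := ModuleCat.ofHom (LinearMap.single R (fun j => K' j) j)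
        r := ModuleCat.ofHom (LinearMap.proj j)
        retract := by
          ext x
          simp }
    exact r.hasProjectiveDimensionLT _
  have hPi2 : HasProjectiveDimensionLE (ModuleCat.of R ((j : Fin l) → K' j)) N0 :=
    pi_pd l K' (N0 + 1) hj
  have hK : HasProjectiveDimensionLE K N0 := hasProjectiveDimensionLT_of_iso e.symm.toModuleIso _
  exact syz_up s K M hsyz N0 hK

end Vale.Agent.Lib.P176.U
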