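import Mathlib

namespace Vale.Agent.Lib.P176.U

universe v

/-- Independent columns contain an invertible square submatrix. -/
theorem exists_minor_aux {K : Type*} [Field K] {r c : Type} [Fintype r] [Fintype c] [DecidableEq r]
    [DecidableEq c] (A : Matrix r c K) (t : ℕ) (κ : Fin t → c)
    (hind : LinearIndependent K (fun i => A.col (κ i))) :
    ∃ ρ : Fin t → r, (A.submatrix ρ κ).det ≠ 0 := by
  classical
  let A1 : Matrix r (Fin t) K := A.submatrix id κ
  have hcol : A1.transpose.row = fun i => A.col (κ i) := by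
    funext i
    rfl
  have h1 : LinearIndependent K A1.transpose.row := by rw [hcol]; exact hind
  have hrA1 : A1.rank = t := by
    rw [← Matrix.rank_transpose, h1.rank_matrix]
    simp
  -- independent rows
  obtain ⟨g, hg, -, hind2⟩ := Submodule.exists_fun_fin_finrank_span_eq K (Set.range A1.row)
  have hr2 : Module.finrank K (Submodule.span K (Set.range A1.row)) = t := by
    rw [← Matrix.rank_eq_finrank_span_row, hrA1]
  choose ρ hρ using hg
  let ρ' : Fin t → r := fun i => ρ (Fin.cast hr2.symm i)
  have hrows : (A1.submatrix ρ' id).row = g ∘ Fin.cast hr2.symm := by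
    funext i
    simp only [Function.comp]
    rw [← hρ]
    rfl
  have h3 : LinearIndependent K (A1.submatrix ρ' id).row := by
    rw [hrows]
    exact hind2.comp _ (Fin.cast_injective _)
  have h4 : IsUnit (A1.submatrix ρ' id) := Matrix.linearIndependent_rows_iff_isUnit.1 h3
  refine ⟨ρ', ?_⟩
  have h5 : IsUnit (A1.submatrix ρ' id).det := (Matrix.isUnit_iff_isUnit_det _).1 h4
  exact h5.ne_zero

/-- A matrix over a field has an invertible square submatrix of size its rank. -/
theorem exists_minor {K : Type*} [Field K] {r c : Type} [Fintype r] [Fintype c] [DecidableEq r]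
    [DecidableEq c] (A : Matrix r c K) :
    ∃ (t : ℕ) (ρ : Fin t → r) (κ : Fin t → c), t = A.rank ∧ (A.submatrix ρ κ).det ≠ 0 := by
  classical
  obtain ⟨f, hf, -, hind⟩ := Submodule.exists_fun_fin_finrank_span_eq K (Set.range A.col)
  have hr : Module.finrank K (Submodule.span K (Set.range A.col)) = A.rank :=
    (Matrix.rank_eq_finrank_span_cols A).symm
  choose κ hκ using hf
  have hfe : (fun i => A.col (κ i)) = f := funext hκ
  obtain ⟨ρ, hρ⟩ := exists_minor_aux A _ κ (by rw [hfe]; exact hind)
  exact ⟨_, ρ, κ, hr, hρ⟩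

/-- Exactness in the middle of a specialized complex of finite free modules is open, for
specializations to arbitrary fields. -/
theorem open_exact_ring {B : Type*} [CommRing B] {K : Type v} [Field K] (π : B →+* K)
    {a b c : Type} [Fintype a] [Fintype b] [Fintype c] [DecidableEq a] [DecidableEq b]
    [DecidableEq c] (D0 : Matrix b a B) (D1 : Matrix c b B) (h : D1 * D0 = 0)
    (hex : ∀ x : b → K, (D1.map π).mulVec x = 0 → ∃ y, (D0.map π).mulVec y = x) :
    ∃ f : B, π f ≠ 0 ∧ ∀ (K' : Type v) [Field K'] (π' : B →+* K'), π' f ≠ 0 →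
      ∀ x : b → K', (D1.map π').mulVec x = 0 → ∃ y, (D0.map π').mulVec y = x := by
  classical
  obtain ⟨t0, ρ0, κ0, ht0, hd0⟩ := exists_minor (D0.map π)
  obtain ⟨t1, ρ1, κ1, ht1, hd1⟩ := exists_minor (D1.map π)
  have hdet : ∀ {K' : Type v} [Field K'] (π' : B →+* K') {t : ℕ} {u v : Type} [Fintype u]
      [Fintype v] (D : Matrix u v B) (ρ : Fin t → u) (κ : Fin t → v),
      π' (D.submatrix ρ κ).det = ((D.map π').submatrix ρ κ).det := by
    intro K' _ π' t u v _ _ D ρ κ
    rw [RingHom.map_det]
    rfl
  have hcard : Fintype.card b ≤ t0 + t1 := by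
    have hle : LinearMap.ker (D1.map π).mulVecLin ≤ LinearMap.range (D0.map π).mulVecLin := by
      intro x hx
      obtain ⟨y, hy⟩ := hex x (LinearMap.mem_ker.mp hx)
      exact ⟨y, hy⟩
    have h1 := Submodule.finrank_mono hle
    have h2 := LinearMap.finrank_range_add_finrank_ker (D1.map π).mulVecLin
    simp only [Module.finrank_fintype_fun_eq_card] at h2
    have e0 : Module.finrank K (LinearMap.range (D0.map π).mulVecLin) = t0 := ht0.symm
    have e1 : Module.finrank K (LinearMap.range (D1.map π).mulVecLin) = t1 := ht1.symm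
    omega
  refine ⟨(D0.submatrix ρ0 κ0).det * (D1.submatrix ρ1 κ1).det, ?_, ?_⟩
  · rw [map_mul, hdet, hdet]
    exact mul_ne_zero hd0 hd1
  · intro K' _ π' hf x hx
    rw [map_mul] at hf
    have hf0 := left_ne_zero_of_mul hf
    have hf1 := right_ne_zero_of_mul hf
    rw [hdet] at hf0 hf1
    have hr0 : t0 ≤ (D0.map π').rank := by
      have e := Matrix.rank_of_det_ne_zero hf0
      have e2 := Matrix.rank_submatrix_le (D0.map π') ρ0 κ0
      simpa [e] using e2
    have hr1 : t1 ≤ (D1.map π').rank := by
      have e := Matrix.rank_of_det_ne_zero hf1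
      have e2 := Matrix.rank_submatrix_le (D1.map π') ρ1 κ1
      simpa [e] using e2
    have hz : D1.map π' * D0.map π' = 0 := by
      rw [← Matrix.map_mul, h]
      ext p q
      simp
    have hsum := Matrix.rank_add_rank_le_card_of_mul_eq_zero hz
    have hle : LinearMap.range (D0.map π').mulVecLin ≤ LinearMap.ker (D1.map π').mulVecLin := by
      rintro _ ⟨y, rfl⟩
      rw [LinearMap.mem_ker]
      simp only [Matrix.mulVecLin_apply]
      rw [Matrix.mulVec_mulVec, hz, Matrix.zero_mulVec]
    have h2 := LinearMap.finrank_range_add_finrank_ker (D1.map π').mulVecLin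
    simp only [Module.finrank_fintype_fun_eq_card] at h2
    have e0 : Module.finrank K' (LinearMap.range (D0.map π').mulVecLin) = (D0.map π').rank := rfl
    have e1 : Module.finrank K' (LinearMap.range (D1.map π').mulVecLin) = (D1.map π').rank := rfl
    have heq := Submodule.eq_of_le_of_finrank_le hle (by omega)
    have hxr : x ∈ LinearMap.range (D0.map π').mulVecLin := by
      rw [heq]
      exact LinearMap.mem_ker.mpr hx
    obtain ⟨y, hy⟩ := hxr
    exact ⟨y, hy⟩

end Vale.Agent.Lib.P176.U
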